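import Mathlib
import Vale.Agent.Results.P295.VenereauDiscriminant

namespace Vale.Agent.Lib.P295

open MvPolynomial
open Vale.Agent.Results.P295.VenereauFamily
open Vale.Agent.Results.P295.VenereauDiscriminant

/-- U1. Criterion: the substitution y -> y + x H, v -> v + x S, w -> w is induced by an
endomorphism of C[x,y,z,u] as soon as the two divisibility conditions h1, h2 hold.
Proof: put P' = p + x T, Z' = z + S - H p - y T - x H T,
U' = u + T2 + 2 z T + 2 S T - 2 H p T - y T^2 - x H T^2 and Phi = aeval ![x, y + x H, Z', U'].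
Then x Z' = V - b P' (ring), x^2 U' = w + 2 V P' - b P'^2 (ring + h2),
x^2 (b U' + Z'^2) = b w + V^2 = x^2 P' (h1), cancel x^2, so Phi p = P'. -/
theorem exists_endo (H S T T2 : R4)
    (h1 : (y + x * H) * w + (v + x * S) ^ 2 = x ^ 2 * (p + x * T))
    (h2 : 2 * S * p - H * p ^ 2 = x * T2) :
    ∃ Φ : R4 →ₐ[ℂ] R4, Φ x = x ∧ Φ y = y + x * H ∧ Φ v = v + x * S ∧ Φ w = w := by
  obtain ⟨Z', hZ'⟩ : ∃ Z' : R4, Z' = z + S - H * p - y * T - x * H * T := ⟨_, rfl⟩
  obtain ⟨U', hU'⟩ : ∃ U' : R4, U' = u + T2 + 2 * z * T + 2 * S * T - 2 * H * p * T - y * T ^ 2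
      - x * H * T ^ 2 := ⟨_, rfl⟩
  have hx0 : x ≠ 0 := by
    unfold x
    exact MvPolynomial.X_ne_zero 0
  have hxZ : x * Z' = (v + x * S) - (y + x * H) * (p + x * T) := by
    rw [hZ', hv]
    ring
  have hxU : x ^ 2 * U' = w + 2 * (v + x * S) * (p + x * T) - (y + x * H) * (p + x * T) ^ 2 := by
    rw [hU', hw, hv]
    linear_combination (-x) * h2
  have hP : (y + x * H) * U' + Z' ^ 2 = p + x * T := by
    have h : x ^ 2 * ((y + x * H) * U' + Z' ^ 2) = x ^ 2 * (p + x * T) := by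
      rw [← h1]
      linear_combination (y + x * H) * hxU + (x * Z' + ((v + x * S) - (y + x * H) * (p + x * T))) * hxZ
    exact mul_left_cancel₀ (pow_ne_zero 2 hx0) h
  let Φ : R4 →ₐ[ℂ] R4 := aeval ![x, y + x * H, Z', U']
  have Fx : Φ x = x := by simp [Φ, x]
  have Fy : Φ y = y + x * H := by simp [Φ, y]
  have Fz : Φ z = Z' := by simp [Φ, z]
  have Fu : Φ u = U' := by simp [Φ, u]
  have Fp : Φ p = p + x * T := by
    rw [← hP]
    show Φ (y * u + z ^ 2) = _
    rw [map_add, map_mul, map_pow, Fy, Fz, Fu]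
  refine ⟨Φ, Fx, Fy, ?_, ?_⟩
  · show Φ (x * z + y * p) = _
    rw [map_add, map_mul, map_mul, Fx, Fy, Fz, Fp]
    linear_combination hxZ
  · show Φ (x ^ 2 * u - 2 * x * z * p - y * p ^ 2) = _
    simp only [map_sub, map_mul, map_pow, map_ofNat, Fx, Fy, Fz, Fu, Fp]
    linear_combination hxU - 2 * (p + x * T) * hxZ

end Vale.Agent.Lib.P295
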