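import Mathlib
import Vale.Agent.Results.P295.VenereauDiscriminant

namespace Vale.Agent.Lib.P295

open MvPolynomial
open Vale.Agent.Results.P295.VenereauFamily
open Vale.Agent.Results.P295.VenereauDiscriminant

/-- U3. -/
theorem hom_eval (φ : R4 →ₐ[ℂ] R4) (R : Polynomial R4) (h : ∀ n, φ (R.coeff n) = R.coeff n)
    (a : R4) : φ (R.eval a) = R.eval (φ a) := by
  rw [Polynomial.eval_eq_sum_range, Polynomial.eval_eq_sum_range, map_sum]
  refine Finset.sum_congr rfl fun n _ => ?_
  rw [map_mul, map_pow, h n]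

theorem hom_eval_derivative (φ : R4 →ₐ[ℂ] R4) (R : Polynomial R4)
    (h : ∀ n, φ (R.coeff n) = R.coeff n) (a : R4) :
    φ ((Polynomial.derivative R).eval a) = (Polynomial.derivative R).eval (φ a) := by
  apply hom_eval
  intro n
  rw [Polynomial.coeff_derivative, map_mul, h (n + 1), map_add, map_natCast, map_one]

end Vale.Agent.Lib.P295
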