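import Mathlib

namespace Vale.Agent.Lib.P295

section
variable {A : Type*} [CommRing A]

/-- U4a: first divisibility condition for the forward map. -/
theorem phi_h1 (x y v w p r r' k ρ : A)
    (rel : y * w + v ^ 2 = x ^ 2 * p)
    (hT : ρ = r + r' * (-(v ^ 2 + (y + x * (2 * v * r - x * w * (r ^ 2 + 4 * v ^ 2 * r * r'))) * w))
      + k * (-(v ^ 2 + (y + x * (2 * v * r - x * w * (r ^ 2 + 4 * v ^ 2 * r * r'))) * w)) ^ 2) :
    ∃ T μ : A, ρ - r = x * μ ∧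
      (y + x * (2 * v * r - x * w * (r ^ 2 + 4 * v ^ 2 * r * r'))) * w + (v + x * (-(w * ρ))) ^ 2
        = x ^ 2 * (p + x * T) := by
  set H : A := 2 * v * r - x * w * (r ^ 2 + 4 * v ^ 2 * r * r') with hH
  set ε1 : A := x * p + H * w with hε1
  have hε : v ^ 2 + (y + x * H) * w = x * ε1 := by
    rw [hε1]
    linear_combination rel
  have hρ : ρ - r = x * (-(r' * ε1) + x * k * ε1 ^ 2) := by
    rw [hT, hε]
    ring
  refine ⟨2 * v * w * r' * (p - w ^ 2 * (r ^ 2 + 4 * v ^ 2 * r * r')) - 2 * v * w * k * ε1 ^ 2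
    + w ^ 2 * (-(r' * ε1) + x * k * ε1 ^ 2) * (ρ + r), -(r' * ε1) + x * k * ε1 ^ 2, hρ, ?_⟩
  rw [hε1, hH] at *
  linear_combination rel + (-(2 * x * v * w) + x ^ 2 * w ^ 2 * (ρ + r)) * hρ

/-- U4b: second divisibility condition for the forward map. -/
theorem phi_h2 (x z u v w p r r' ρ μ : A)
    (rel2 : w + v * p = x * (x * u - z * p))
    (hρ : ρ - r = x * μ) :
    ∃ T2 : A, 2 * (-(w * ρ)) * p - (2 * v * r - x * w * (r ^ 2 + 4 * v ^ 2 * r * r')) * p ^ 2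
      = x * T2 := by
  refine ⟨-(2 * p * (w * μ + r * (x * u - z * p))) + w * (r ^ 2 + 4 * v ^ 2 * r * r') * p ^ 2, ?_⟩
  linear_combination (-(2 * p * w)) * hρ + (-(2 * p * r)) * rel2

/-- U5a: first divisibility condition for the backward map; `v1 = v + x w σ`. -/
theorem psi_h1 (x y v w p r1 r1' k σ : A)
    (rel : y * w + v ^ 2 = x ^ 2 * p)
    (hT : σ = r1 + r1' * (-((v + x * w * σ) ^ 2 + y * w)) + k * (-((v + x * w * σ) ^ 2 + y * w)) ^ 2) :
    ∃ T μ : A, σ - r1 = x * μ ∧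
      (y + x * (-(2 * (v + x * w * σ) * r1
          - x * w * (r1 ^ 2 + 4 * (v + x * w * σ) ^ 2 * r1 * r1')))) * w + (v + x * (w * σ)) ^ 2
        = x ^ 2 * (p + x * T) := by
  set v1 : A := v + x * w * σ with hv1
  set ε1 : A := x * p + 2 * v * w * σ + x * w ^ 2 * σ ^ 2 with hε1
  have hε : v1 ^ 2 + y * w = x * ε1 := by
    rw [hε1, hv1]
    linear_combination rel
  have hσ : σ - r1 = x * (-(r1' * ε1) + x * k * ε1 ^ 2) := by
    have h := hT
    rw [hε] at h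
    linear_combination h
  refine ⟨-(w ^ 2 * (-(r1' * ε1) + x * k * ε1 ^ 2) * (σ + r1))
    - 2 * v1 * w * r1' * (p - w ^ 2 * σ ^ 2 + 2 * v1 * w * (-(r1' * ε1) + x * k * ε1 ^ 2))
    + 2 * v1 * w * k * ε1 ^ 2, -(r1' * ε1) + x * k * ε1 ^ 2, hσ, ?_⟩
  rw [hε1, hv1] at *
  linear_combination rel
    + (2 * x * (v + x * w * σ) * w - x ^ 2 * w ^ 2 * (σ + r1)
        - 4 * x ^ 2 * (v + x * w * σ) ^ 2 * w ^ 2 * r1') * hσ

/-- U5b: second divisibility condition for the backward map. -/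
theorem psi_h2 (x z u v w p r1 r1' σ μ : A)
    (rel2 : w + v * p = x * (x * u - z * p))
    (hσ : σ - r1 = x * μ) :
    ∃ T2 : A, 2 * (w * σ) * p - (-(2 * (v + x * w * σ) * r1
          - x * w * (r1 ^ 2 + 4 * (v + x * w * σ) ^ 2 * r1 * r1'))) * p ^ 2 = x * T2 := by
  refine ⟨2 * p * (w * μ + r1 * (x * u - z * p + w * σ * p))
    - w * (r1 ^ 2 + 4 * (v + x * w * σ) ^ 2 * r1 * r1') * p ^ 2, ?_⟩
  linear_combination (2 * p * w) * hσ + (2 * p * r1) * rel2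

end

end Vale.Agent.Lib.P295
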