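import Mathlib
import Vale.Agent.Results.P295.VenereauDiscriminant

namespace Vale.Agent.Lib.P295

open MvPolynomial
open Vale.Agent.Results.P295.VenereauFamily
open Vale.Agent.Results.P295.VenereauDiscriminant

/-- U2. Rigidity: an endomorphism fixing x, y, v, w is the identity
(x^2 p = y w + v^2, x z = v - y p, x^2 u = w + 2 x z p + y p^2, cancel powers of x). -/
theorem endo_rigid (Θ : R4 →ₐ[ℂ] R4) (hx : Θ x = x) (hy : Θ y = y) (hv : Θ v = v)
    (hw : Θ w = w) : Θ = AlgHom.id ℂ R4 := by
  have hx0 : (x : R4) ≠ 0 := by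
    unfold x; exact MvPolynomial.X_ne_zero 0
  have hx2 : (x : R4) ^ 2 ≠ 0 := pow_ne_zero 2 hx0
  have e1 : x ^ 2 * p = y * w + v ^ 2 := by
    rw [Vale.Agent.Results.P295.VenereauDiscriminant.hw, Vale.Agent.Results.P295.VenereauDiscriminant.hv, Vale.Agent.Results.P295.VenereauDiscriminant.hp]; ring
  have e2 : x * z = v - y * p := by
    rw [Vale.Agent.Results.P295.VenereauDiscriminant.hv]; ring
  have e3 : x ^ 2 * u = w + 2 * x * z * p + y * p ^ 2 := by
    rw [Vale.Agent.Results.P295.VenereauDiscriminant.hw]; ring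
  have hp' : Θ p = p := by
    apply mul_left_cancel₀ hx2
    have := congrArg Θ e1
    rw [map_mul, map_pow, map_add, map_mul, map_pow, hx, hy, hv, hw] at this
    rw [this, e1]
  have hz : Θ z = z := by
    apply mul_left_cancel₀ hx0
    have := congrArg Θ e2
    rw [map_mul, map_sub, map_mul, hx, hy, hv, hp'] at this
    rw [this, e2]
  have hu : Θ u = u := by
    apply mul_left_cancel₀ hx2
    have := congrArg Θ e3
    simp only [map_mul, map_pow, map_add, map_ofNat, hx, hy, hw, hz, hp'] at this
    rw [this, e3]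
  apply MvPolynomial.algHom_ext
  intro i
  fin_cases i
  · exact hx
  · exact hy
  · exact hz
  · exact hu

end Vale.Agent.Lib.P295
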