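import Mathlib
import Vale.Agent.Results.P295.VenereauDiscriminant
import Vale.Agent.Lib.P295.Endo
import Vale.Agent.Lib.P295.Rigid
import Vale.Agent.Lib.P295.HomEval
import Vale.Agent.Lib.P295.Identities

namespace Vale.Agent.Lib.P295

open MvPolynomial
open Vale.Agent.Results.P295.VenereauFamily
open Vale.Agent.Results.P295.VenereauDiscriminant

/-- `2 t R(t^2) - x w (R(t^2)^2 + 4 t^2 R(t^2) R'(t^2))` -/
noncomputable def Hof (R : Polynomial R4) (t : R4) : R4 :=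
  2 * t * R.eval (t ^ 2)
    - x * w * ((R.eval (t ^ 2)) ^ 2
      + 4 * t ^ 2 * R.eval (t ^ 2) * (Polynomial.derivative R).eval (t ^ 2))

theorem rel_q : y * w + v ^ 2 = x ^ 2 * p := by
  rw [hw, hv, hp]
  ring

theorem rel_2 : w + v * p = x * (x * u - z * p) := by
  rw [hw, hv, hp]
  ring

theorem fix_Axw (φ : R4 →ₐ[ℂ] R4) (hx : φ x = x) (hw' : φ w = w) (a : R4) (ha : a ∈ Axw) :
    φ a = a := by
  have h : Axw ≤ AlgHom.equalizer φ (AlgHom.id ℂ R4) := by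
    refine Algebra.adjoin_le ?_
    intro t ht
    rcases ht with rfl | rfl
    · exact hx
    · exact hw'
  exact h ha

theorem hom_Hof (φ : R4 →ₐ[ℂ] R4) (hx : φ x = x) (hw' : φ w = w) (R : Polynomial R4)
    (hR : ∀ n, R.coeff n ∈ Axw) (t : R4) : φ (Hof R t) = Hof R (φ t) := by
  have hc : ∀ n, φ (R.coeff n) = R.coeff n := fun n => fix_Axw φ hx hw' _ (hR n)
  unfold Hof
  simp only [map_sub, map_add, map_mul, map_pow, map_ofNat, hx, hw', hom_eval φ R hc,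
    hom_eval_derivative φ R hc]

theorem exists_fwd (R : Polynomial R4) :
    ∃ Φ : R4 →ₐ[ℂ] R4, Φ x = x ∧ Φ y = y + x * Hof R v ∧
      Φ v = v + x * (-(w * R.eval (-((y + x * Hof R v) * w)))) ∧ Φ w = w := by
  obtain ⟨k, hk⟩ := Polynomial.binomExpansion R (v ^ 2) (-(v ^ 2 + (y + x * Hof R v) * w))
  have e : v ^ 2 + -(v ^ 2 + (y + x * Hof R v) * w) = -((y + x * Hof R v) * w) := by ring
  rw [e] at hk
  obtain ⟨T, μ, hμ, h1⟩ := phi_h1 x y v w p (R.eval (v ^ 2))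
    ((Polynomial.derivative R).eval (v ^ 2)) k (R.eval (-((y + x * Hof R v) * w))) rel_q hk
  obtain ⟨T2, h2⟩ := phi_h2 x z u v w p (R.eval (v ^ 2))
    ((Polynomial.derivative R).eval (v ^ 2)) (R.eval (-((y + x * Hof R v) * w))) μ rel_2 hμ
  exact exists_endo (Hof R v) (-(w * R.eval (-((y + x * Hof R v) * w)))) T T2 h1 h2

theorem exists_bwd (R : Polynomial R4) :
    ∃ Ψ : R4 →ₐ[ℂ] R4, Ψ x = x ∧
      Ψ y = y + x * (-(Hof R (v + x * w * R.eval (-(y * w))))) ∧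
      Ψ v = v + x * (w * R.eval (-(y * w))) ∧ Ψ w = w := by
  obtain ⟨k, hk⟩ := Polynomial.binomExpansion R ((v + x * w * R.eval (-(y * w))) ^ 2)
    (-((v + x * w * R.eval (-(y * w))) ^ 2 + y * w))
  have e : (v + x * w * R.eval (-(y * w))) ^ 2 + -((v + x * w * R.eval (-(y * w))) ^ 2 + y * w)
      = -(y * w) := by ring
  rw [e] at hk
  obtain ⟨T, μ, hμ, h1⟩ := psi_h1 x y v w p (R.eval ((v + x * w * R.eval (-(y * w))) ^ 2))
    ((Polynomial.derivative R).eval ((v + x * w * R.eval (-(y * w))) ^ 2)) k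
    (R.eval (-(y * w))) rel_q hk
  obtain ⟨T2, h2⟩ := psi_h2 x z u v w p (R.eval ((v + x * w * R.eval (-(y * w))) ^ 2))
    ((Polynomial.derivative R).eval ((v + x * w * R.eval (-(y * w))) ^ 2))
    (R.eval (-(y * w))) μ rel_2 hμ
  exact exists_endo (-(Hof R (v + x * w * R.eval (-(y * w))))) (w * R.eval (-(y * w))) T T2 h1 h2

/-- **The odd family.** For every polynomial `R` with coefficients in `C[x,w]` there is an
automorphism fixing `x` and `w` and sending `y` to `y + x Hof R v`. -/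
theorem odd_family (R : Polynomial R4) (hR : ∀ n, R.coeff n ∈ Axw) :
    ∃ φ : R4 ≃ₐ[ℂ] R4, φ x = x ∧ φ w = w ∧ φ y = y + x * Hof R v := by
  obtain ⟨Φ, hΦx, hΦy, hΦv, hΦw⟩ := exists_fwd R
  obtain ⟨Ψ, hΨx, hΨy, hΨv, hΨw⟩ := exists_bwd R
  have hcΦ : ∀ n, Φ (R.coeff n) = R.coeff n := fun n => fix_Axw Φ hΦx hΦw _ (hR n)
  have hcΨ : ∀ n, Ψ (R.coeff n) = R.coeff n := fun n => fix_Axw Ψ hΨx hΨw _ (hR n)
  -- Φ (v1) = v
  have hΦσ : Φ (R.eval (-(y * w))) = R.eval (-((y + x * Hof R v) * w)) := by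
    rw [hom_eval Φ R hcΦ, map_neg, map_mul, hΦy, hΦw]
  have hΦv1 : Φ (v + x * w * R.eval (-(y * w))) = v := by
    rw [map_add, map_mul, map_mul, hΦx, hΦw, hΦv, hΦσ]
    ring
  have h1 : Φ.comp Ψ = AlgHom.id ℂ R4 := by
    apply endo_rigid
    · rw [AlgHom.comp_apply, hΨx, hΦx]
    · rw [AlgHom.comp_apply, hΨy, map_add, map_mul, map_neg, hom_Hof Φ hΦx hΦw R hR, hΦv1, hΦx,
        hΦy]
      ring
    · rw [AlgHom.comp_apply, hΨv, map_add, map_mul, map_mul, hΦx, hΦw, hΦv, hΦσ]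
      ring
    · rw [AlgHom.comp_apply, hΨw, hΦw]
  -- Ψ (b) = y
  have hΨv' : Ψ v = v + x * w * R.eval (-(y * w)) := by
    rw [hΨv]
    ring
  have hΨb : Ψ (y + x * Hof R v) = y := by
    rw [map_add, map_mul, hom_Hof Ψ hΨx hΨw R hR, hΨv', hΨx, hΨy]
    ring
  have hΨρ : Ψ (R.eval (-((y + x * Hof R v) * w))) = R.eval (-(y * w)) := by
    rw [hom_eval Ψ R hcΨ, map_neg, map_mul, hΨb, hΨw]
  have h2 : Ψ.comp Φ = AlgHom.id ℂ R4 := by
    apply endo_rigid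
    · rw [AlgHom.comp_apply, hΦx, hΨx]
    · rw [AlgHom.comp_apply, hΦy, hΨb]
    · rw [AlgHom.comp_apply, hΦv, map_add, map_mul, map_neg, map_mul, hΨx, hΨw, hΨv, hΨρ]
      ring
    · rw [AlgHom.comp_apply, hΦw, hΨw]
  exact ⟨AlgEquiv.ofAlgHom Φ Ψ h1 h2, hΦx, hΦw, hΦy⟩

end Vale.Agent.Lib.P295
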